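import Vale.Agent.Lib.P154.SP.Prog

/-! Generated certificates. -/

namespace Vale.Agent.Lib.P154

namespace SP

open Tr in
theorem tc6 : chk TK6c [] (s2 (s1 (s0 (s0 l (s0 l l)) (s0 (s0 l l) (s0 l (s2 l l)))) (s0 (s0 l (s0 l l)) (s0 (s0 l l) (s0 (s2 l l) (s2 l l))))) (s1 (s0 (s0 (s2 l l) (s0 l l)) (s0 (s0 (s2 l l) (s1 l l)) (s0 (s1 l l) (s1 l l)))) (s0 (s0 (s1 l l) (s0 l (s2 l l))) (s2 (s1 (s0 (s0 l l) (s0 l l)) (s0 (s0 l l) (s0 l l))) (s1 (s0 (s0 l l) (s0 l l)) (s0 (s0 l l) (s0 l l)))))))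
    (Bx.mk 281474993487872 16777216 281475337420800 25165824 281475002859520 26148864 281474976710656 0) = true := by
  decide +kernel

open Tr in
theorem tc7 : chk TK6c [] (s1 (s0 (s0 (s2 l l) (s0 l l)) (s2 (s0 (s0 l l) (s0 l l)) (s1 (s0 (s0 l l) (s0 l l)) (s0 (s0 l l) (s0 l l))))) (s0 (s0 (s0 l l) (s0 l l)) (s2 (s1 (s0 (s0 l l) (s0 l l)) (s0 (s0 l l) (s0 l l))) (s1 (s0 (s0 l l) (s0 l l)) (s0 (s0 l l) (s0 l l))))))
    (Bx.mk 281474993487872 16777216 281475387752448 25165824 281474989785088 13074432 281474976710656 0) = true := by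
  decide +kernel

open Tr in
theorem tc8 : chk TK6c [] (s1 (s0 (s0 (s0 l l) (s0 l (s1 l l))) (s2 (s1 (s0 (s0 l l) (s0 l l)) (s0 (s0 l l) (s0 l l))) (s1 (s0 (s0 l l) (s0 l l)) (s0 (s0 l l) (s0 l l))))) (s0 (s0 (s0 l l) (s0 (s2 l l) (s1 l l))) (s2 (s1 (s0 (s0 l l) (s0 l l)) (s0 (s0 l l) (s0 l l))) (s1 (s0 (s0 l l) (s0 l l)) (s0 (s0 l l) (s0 l l))))))
    (Bx.mk 281474993487872 16777216 281475387752448 25165824 281475015933952 13074432 281474976710656 0) = true := by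
  decide +kernel

open Tr in
theorem tc9 : chk TK6c [] (s1 (s0 (s0 (s0 l l) (s0 (s2 l l) (s1 l l))) (s2 (s0 (s0 (s1 l l) (s1 l l)) (s0 (s1 l l) (s1 l l))) (s1 (s0 (s0 l (s2 l l)) (s0 (s1 l l) (s1 l l))) (s0 (s0 l (s1 l l)) (s0 (s1 l l) (s1 l l)))))) (s0 (s0 (s0 l l) (s0 (s1 l l) (s0 l (s2 l l)))) (s2 (s1 (s0 (s0 l l) (s0 l l)) (s0 (s0 l l) (s0 l l))) (s1 (s0 (s0 (s2 l l) (s1 l l)) (s0 (s1 l l) (s1 l l))) (s0 (s0 (s1 l l) (s1 l l)) (s0 (s1 l l) (s1 l l)))))))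
    (Bx.mk 281474993487872 16777216 281475337420800 25165824 281475042082816 13074432 281474976710656 0) = true := by
  decide +kernel

open Tr in
theorem tc10 : chk TK6c [] (s0 (s0 l (s2 l l)) (s0 (s0 l (s2 l l)) (s0 (s1 l l) (s2 l (s1 l l)))))
    (Bx.mk 281474985099264 8388608 281475324837888 12582912 281475068231680 13074432 281474976710656 0) = true := by
  decide +kernel

open Tr in
theorem tc11 : chk TK6c [] (s1 (s0 (s0 (s1 l l) (s0 l l)) (s0 (s0 l l) (s0 l l))) (s0 (s0 (s0 l l) (s0 l l)) (s0 (s0 l l) (s0 l l))))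
    (Bx.mk 281475001876480 8388608 281475324837888 12582912 281475061694464 6537216 281474976710656 0) = true := by
  decide +kernel

end SP

end Vale.Agent.Lib.P154
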