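import Vale.Agent.Lib.P154.SP.Prog

/-! Generated certificates. -/

namespace Vale.Agent.Lib.P154

namespace SP

open Tr in
theorem tc66 : chk TK6c [] (s2 (s1 (s0 (s0 l l) (s0 l l)) (s0 (s0 l l) (s0 l l))) (s1 (s0 (s0 (s0 l l) (s0 l l)) (s0 (s1 l l) (s2 l l))) (s0 (s0 (s0 l l) (s0 l l)) (s0 (s1 l l) (s2 l l)))))
    (Bx.mk 281475006070784 4194304 281475507290112 6291456 281475074768896 6537216 281474976710656 0) = true := by
  decide +kernel

end SP

end Vale.Agent.Lib.P154
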