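import Vale.Agent.Lib.P154.SP.Prog

/-! Generated certificates. -/

namespace Vale.Agent.Lib.P154

namespace SP

open Tr in
theorem tc73 : chk TK6f SN.gsf (s1 (s2 (s0 (s0 (s1 l l) (s1 l l)) (s0 (s1 l l) (s1 l l))) (s0 (s0 (s1 l l) (s1 l l)) (s0 (s1 l l) (s1 l l)))) (s2 (s0 (s0 (s1 (s1 l l) (s1 l l)) (s1 (s1 l l) (s1 l (s0 l l)))) (s0 (s1 (s1 l l) (s1 (s0 l l) (s0 l l))) (s1 (s0 l l) (s0 (s1 l l) (s1 l l))))) (s0 (s0 (s1 (s1 l l) (s1 l (s0 l l))) (s1 (s1 l l) (s1 (s0 l l) (s0 l l)))) (s0 (s1 (s1 l l) (s1 (s0 l l) (s0 l l))) (s1 (s0 l l) (s0 (s1 l l) (s1 l l)))))))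
    (Bx.mk 281475228368896 16777216 281475077373952 33554432 281475055157248 26148864 281474976710656 0) = true := by
  decide +kernel

open Tr in
theorem tc74 : chk TK6f SN.gsf (s0 (s1 (s2 l (s0 l l)) (s0 (d 0) (s1 (s1 l (d 0)) (d 0)))) (s1 (s2 (s0 l (s1 l l)) (s0 (s1 l l) (s1 l l))) (s2 (s1 (s0 l (s0 l l)) (s0 (s0 (d 0) l) (s1 (s2 l l) (s0 (d 1) l)))) (s0 (s1 l (s1 l (d 0))) (s1 (s0 l l) (s1 (s0 l l) (s0 (d 1) l)))))))
    (Bx.mk 281475144482816 33554432 281475144482816 33554432 281475002859520 26148864 281474976710656 0) = true := by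
  decide +kernel

open Tr in
theorem tc75 : chk TK6f SN.gsf (s1 (s2 (s0 l l) (s2 (s1 l (s0 l l)) (s1 l (s0 l l)))) (s0 (d 0) (s1 (s0 (d 0) (s2 l (s1 l (d 0)))) (d 0))))
    (Bx.mk 281475127705600 16777216 281475144482816 33554432 281475055157248 26148864 281474976710656 0) = true := by
  decide +kernel

open Tr in
theorem tc76 : chk TK6f SN.gsf (s1 (s2 (s0 (s1 l l) (s1 l (s0 l l))) (s0 (s1 (s2 l l) (s0 l (s2 l l))) (s0 (s1 l (s1 l l)) (s1 (s2 l l) (s2 l (s1 l l)))))) (s2 (s0 (s1 (s0 l l) (s1 l (d 0))) (s1 (s0 l (s1 l l)) (s1 (s0 l l) (s0 (d 1) (s0 (d 1) l))))) (s0 (s1 (s1 (s0 l l) (s0 l (s2 l l))) (s1 (s0 (d 0) (s1 l (d 0))) (d 0))) (s1 (s0 (s1 (s2 l l) (s0 l (s2 l l))) (s1 (s0 l l) (s2 l (s0 l l)))) (s2 (s1 (s0 l (s0 l l)) (s0 (d 1) (s0 (d 1) l))) (s1 (s0 (s0 l l) (s0 (s2 l l) (s1 l l))) (s0 (d 1) (s1 (s0 (d 1) l) (d 1)))))))))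
    (Bx.mk 281475161260032 16777216 281475144482816 33554432 281475055157248 26148864 281474976710656 0) = true := by
  decide +kernel

open Tr in
theorem tc77 : chk TK6f SN.gsf (d 1)
    (Bx.mk 281475144482816 33554432 281475211591680 33554432 281475029008384 52297728 281474976710656 0) = true := by
  decide +kernel

open Tr in
theorem tc78 : chk TK6f SN.gsf (s2 (s0 (s1 (s0 l l) (s0 l l)) (s1 (s0 l (s1 l l)) (s0 (s1 l l) (s1 l (s0 l l))))) (s0 (s1 (s0 l l) (s0 l (s1 l l))) (s1 (s0 (s1 l l) (s1 l l)) (s0 (s1 l l) (s1 (s0 l l) (s0 l l))))))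
    (Bx.mk 281475194814464 16777216 281475127705600 16777216 281475002859520 26148864 281474976710656 0) = true := by
  decide +kernel

end SP

end Vale.Agent.Lib.P154
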