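import Vale.Agent.Lib.P154.SP.Prog

/-! Generated certificates. -/

namespace Vale.Agent.Lib.P154

namespace SP

open Tr in
theorem tc109 : chk TK6f SN.gsf (s1 (s0 (s1 (s0 (s1 l l) (s1 l l)) (s0 (s1 l l) (s1 l l))) (s1 (s0 (s1 l l) (s1 l (s2 l l))) (s0 (s1 l l) (s1 (s0 l l) (s0 l l))))) (s0 (s1 (s0 (s1 l l) (s1 l l)) (s0 (s1 l l) (s1 l l))) (s1 (s0 (s1 l (s2 l l)) (s1 (s0 l l) (s0 l l))) (s0 (s1 (s2 l l) (s0 l l)) (s1 (s0 l l) (s0 l l))))))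
    (Bx.mk 281475240951808 4194304 281475152871424 8388608 281475068231680 13074432 281474976710656 0) = true := by
  decide +kernel

open Tr in
theorem tc110 : chk TK6f SN.gsf (s1 (s0 (s1 (s0 (s1 l l) (s1 l l)) (s0 (s1 l l) (s1 l l))) (s1 (s0 (s1 (s0 l l) (s0 l l)) (s1 (s0 l l) (s0 l l))) (s0 (s1 (s0 l l) (s0 l l)) (s1 (s0 l l) (s0 l l))))) (s0 (s1 (s0 (s1 l l) (s1 l l)) (s0 (s1 l l) (s1 l l))) (s1 (s0 (s1 (s0 l l) (s0 l l)) (s1 (s0 l l) (s0 l l))) (s0 (s1 (s0 l l) (s0 l l)) (s1 (s0 l l) (s0 l l))))))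
    (Bx.mk 281475240951808 4194304 281475169648640 8388608 281475068231680 13074432 281474976710656 0) = true := by
  decide +kernel

open Tr in
theorem tc111 : chk TK6f SN.gsf (s0 (d 1) (s1 (s1 (s0 (s1 (s0 l l) (d 1)) (s0 (s1 (s2 l l) (s0 (d 1) l)) (s1 (s0 l l) (s1 l (d 1))))) (d 1)) (d 1)))
    (Bx.mk 281475194814464 16777216 281475194814464 16777216 281475002859520 26148864 281474976710656 0) = true := by
  decide +kernel

open Tr in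
theorem tc112 : chk TK6f SN.gsf (s1 (s0 (s1 (s0 (s1 (s0 l l) (s0 l l)) (s1 (s0 l l) (s0 l l))) (s1 (s0 (d 1) (s1 (s1 l (d 1)) (d 1))) (d 1))) (s1 (s0 (s1 (s0 l l) (s0 l (s1 l l))) (s1 (s0 l (s1 l l)) (s0 (s1 l l) (s1 l l)))) (s0 (s1 (s0 (s1 l (d 1)) (s1 l l)) (d 1)) (s1 (s0 (s1 l l) (s1 l l)) (s1 (s0 (d 1) l) (d 1)))))) (d 1))
    (Bx.mk 281475219980288 8388608 281475194814464 16777216 281474989785088 13074432 281474976710656 0) = true := by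
  decide +kernel

open Tr in
theorem tc113 : chk TK6f SN.gsf (s1 (s1 (s0 (s1 (s0 (s1 l l) (s1 l l)) (s0 (s1 l l) (s1 l l))) (s1 (s0 (s1 l l) (s1 l l)) (s0 (s1 l l) (s1 l l)))) (s0 (s1 (s0 (s1 l l) (s1 l l)) (s1 (s0 l (s0 l l)) (d 1))) (s1 (s0 (s1 l (s0 l l)) (s1 (s0 l l) (s0 l l))) (s0 (s1 (s0 l l) (s1 l (d 1))) (s1 (s0 l l) (s0 l l)))))) (d 1))
    (Bx.mk 281475232563200 4194304 281475194814464 16777216 281474989785088 13074432 281474976710656 0) = true := by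
  decide +kernel

open Tr in
theorem tc114 : chk TK6f SN.gsf (s0 (s1 (s0 (s1 l l) (s1 (s0 l l) (s0 l l))) (s0 (s1 (s0 l l) (s0 l l)) (s1 (s0 l l) (s0 l l)))) (s1 (s0 (s1 (s0 l l) (s0 l l)) (s1 (s0 l l) (s0 l l))) (s0 (s1 (s0 l l) (s0 l l)) (s1 (s0 l l) (s0 l l)))))
    (Bx.mk 281475240951808 4194304 281475182231552 4194304 281474989785088 13074432 281474976710656 0) = true := by
  decide +kernel

end SP

end Vale.Agent.Lib.P154
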