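import Vale.Agent.Lib.P154.SP.Prog

/-! Generated certificates. -/

namespace Vale.Agent.Lib.P154

namespace SP

open Tr in
theorem tc115 : chk TK6f SN.gsf (s0 (s1 (s0 (s1 (s0 l l) (s0 l l)) (s1 (s0 l l) (s0 l l))) (s0 (s1 (s0 l l) (s0 l l)) (s1 (s0 l l) (s0 l l)))) (s1 (s0 (s1 (s0 l l) (s0 l l)) (s1 (s0 l l) (s0 l l))) (s0 (s1 (s0 l l) (s0 l l)) (s1 (s0 l l) (s0 l l)))))
    (Bx.mk 281475240951808 4194304 281475190620160 4194304 281474989785088 13074432 281474976710656 0) = true := by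
  decide +kernel

open Tr in
theorem tc116 : chk TK6f SN.gsf (s1 (s1 (s0 (s1 (s0 (s0 (d 1) l) (s0 l l)) (d 1)) (s0 (s1 (s0 (s1 l l) (s1 l l)) (s0 (d 1) (s1 l (d 1)))) (s1 (s0 (s1 l l) (s1 l l)) (s1 (s0 l l) (d 1))))) (d 1)) (d 1))
    (Bx.mk 281475240951808 4194304 281475203203072 8388608 281474989785088 13074432 281474976710656 0) = true := by
  decide +kernel

open Tr in
theorem tc117 : chk TK6f SN.gsf (s1 (s0 (s1 (s0 (s1 (s0 l l) (s0 l l)) (s1 (s0 l l) (s0 l l))) (s1 (s0 (d 1) (s1 (s1 l (d 1)) (d 1))) (d 1))) (s1 (s0 (s1 (s0 l l) (s0 (s1 l l) (s1 l l))) (s1 (s0 (s1 l l) (s1 l l)) (s0 (s1 l l) (s1 l l)))) (s0 (s1 (s0 (s1 l (d 1)) (s1 l l)) (d 1)) (s1 (s0 (s1 l l) (s1 l l)) (s1 (s0 (d 1) l) (d 1)))))) (d 1))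
    (Bx.mk 281475219980288 8388608 281475194814464 16777216 281475015933952 13074432 281474976710656 0) = true := by
  decide +kernel

open Tr in
theorem tc118 : chk TK6f SN.gsf (s1 (s0 (s1 (s0 (s1 l l) (s1 l l)) (s0 (s1 l l) (s1 l l))) (s1 (s0 (s1 l l) (s1 l l)) (s0 (s1 l l) (s1 l l)))) (s0 (s1 (s0 (s1 l l) (s1 l l)) (s1 (s0 l (s0 l l)) (d 1))) (s1 (s0 (s1 l (s0 l l)) (s1 (s0 l l) (s0 l l))) (s0 (s1 (s0 l l) (s1 l (d 1))) (s1 (s0 l l) (s0 l l))))))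
    (Bx.mk 281475232563200 4194304 281475186425856 8388608 281475015933952 13074432 281474976710656 0) = true := by
  decide +kernel

open Tr in
theorem tc119 : chk TK6f SN.gsf (s1 (s0 (s1 (s0 (s1 l l) (s1 l (s0 l l))) (s0 (s1 l (s0 l l)) (s1 (s0 l l) (s0 l l)))) (s1 (s0 (s1 (s0 l l) (s0 l l)) (s1 (s0 l l) (s0 l l))) (s0 (s1 (s0 l l) (s0 l l)) (s1 (s0 l l) (s0 l l))))) (s0 (s1 (s0 (s1 (s0 l l) (s0 l l)) (s1 (s0 l l) (s0 l l))) (s0 (s1 (s0 l l) (s0 l l)) (s1 (s0 l l) (s0 l l)))) (s1 (s0 (s1 (s0 l l) (s0 l l)) (s1 (s0 l l) (s0 l l))) (s0 (s1 (s0 l l) (s0 l l)) (s1 (s0 l l) (s0 l l))))))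
    (Bx.mk 281475240951808 4194304 281475186425856 8388608 281475015933952 13074432 281474976710656 0) = true := by
  decide +kernel

open Tr in
theorem tc120 : chk TK6f SN.gsf (s0 (d 1) (s1 (s1 (s0 (s1 (s0 (s0 (d 1) l) (s0 l l)) (d 1)) (s0 (s1 (s0 l l) (s0 (d 1) (s1 l (d 1)))) (s1 (s0 l l) (s1 (s0 l l) (d 1))))) (d 1)) (d 1)))
    (Bx.mk 281475236757504 8388608 281475203203072 8388608 281475015933952 13074432 281474976710656 0) = true := by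
  decide +kernel

end SP

end Vale.Agent.Lib.P154
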