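import Vale.Agent.Lib.P154.SP.Prog

/-! Generated certificates. -/

namespace Vale.Agent.Lib.P154

namespace SP

open Tr in
theorem tc127 : chk TK6f SN.gsf (s1 (s0 (s1 (s0 (s1 l l) (s1 l l)) (s0 (s1 l l) (s1 l l))) (s1 (s0 (s1 l l) (s1 l l)) (s0 (s1 l (s0 l l)) (s1 (s2 l l) (s0 l l))))) (s0 (s1 (s0 (s1 (s0 l l) (s0 l l)) (s1 (s0 l l) (s0 l l))) (s1 (s0 (s0 l l) (s0 l l)) (d 1))) (s1 (s0 (s1 (s0 l l) (s0 l l)) (s1 (s0 l l) (s0 l l))) (s0 (s1 (s0 l l) (s1 l (d 1))) (s1 (s0 l l) (s0 l l))))))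
    (Bx.mk 281475232563200 4194304 281475186425856 8388608 281475068231680 13074432 281474976710656 0) = true := by
  decide +kernel

open Tr in
theorem tc128 : chk TK6f SN.gsf (s0 (s1 (s0 (s1 l (s2 l l)) (s1 (s0 l l) (s0 l l))) (s0 (s1 (s0 l l) (s0 l l)) (s1 (s0 l l) (s0 l l)))) (s1 (s0 (s1 (s0 l l) (s0 l l)) (s1 (s0 l l) (s0 l l))) (s0 (s1 (s0 l l) (s0 l l)) (s1 (s0 l l) (s0 l l)))))
    (Bx.mk 281475240951808 4194304 281475182231552 4194304 281475068231680 13074432 281474976710656 0) = true := by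
  decide +kernel

open Tr in
theorem tc129 : chk TK6f SN.gsf (s0 (s1 (s0 (s1 (s0 l l) (s0 l l)) (s1 (s0 l l) (s0 l l))) (s0 (s1 (s0 l l) (s0 l l)) (s1 (s0 l l) (s0 l l)))) (s1 (s0 (s1 (s0 l l) (s0 l l)) (s1 (s0 l l) (s0 l l))) (s0 (s1 (s0 l l) (s0 l l)) (s1 (s0 l l) (s0 l l)))))
    (Bx.mk 281475240951808 4194304 281475190620160 4194304 281475068231680 13074432 281474976710656 0) = true := by
  decide +kernel

open Tr in
theorem tc130 : chk TK6f SN.gsf (s0 (d 1) (s1 (s1 (s0 (s1 (s0 (s0 (d 1) l) (s0 l l)) (d 1)) (s0 (s1 (s0 l l) (s0 (d 1) (s1 l (d 1)))) (s1 (s0 l l) (s1 (s0 l l) (d 1))))) (d 1)) (d 1)))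
    (Bx.mk 281475236757504 8388608 281475203203072 8388608 281475068231680 13074432 281474976710656 0) = true := by
  decide +kernel

open Tr in
theorem tc131 : chk TK6f SN.gsf (d 1)
    (Bx.mk 281475211591680 33554432 281475228368896 16777216 281475029008384 52297728 281474976710656 0) = true := by
  decide +kernel

end SP

end Vale.Agent.Lib.P154
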