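import Vale.Agent.Lib.P154.SP.Prog

/-! Generated certificates. -/

namespace Vale.Agent.Lib.P154

namespace SP

open Tr in
theorem tc138 : chk TKCP [] (s0 (s0 (s1 (s0 (s1 l l) (s1 l l)) (s0 (s1 l l) l)) (s1 (s0 (s1 l l) (s1 l l)) l)) (s0 (s1 (s0 (s1 l l) (s1 l l)) l) (s1 (s0 (s1 (s0 l l) l) (s1 (s0 l (s1 l l)) l)) l)))
    (Bx.mk 281475109421056 14745600 281475211001856 5832704 281474976710656 0 281474976710656 0) = true := by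
  decide +kernel

open Tr in
theorem tc139 : chk TKCP [] (s0 (s0 (s1 (s0 (s1 (s0 (s1 l l) (s1 l l)) l) (s1 (s0 (s1 l l) (s1 l l)) l)) l) (s1 (s0 (s1 (s0 (s1 l l) (s1 l l)) l) (s1 (s0 (s1 l l) (s1 l l)) l)) l)) (s0 (s1 (s0 (s1 (s0 (s1 l l) (s1 l l)) l) (s1 (s0 (s1 l l) (s1 l l)) l)) l) (s1 (s0 (s1 (s0 (s1 l l) (s1 l l)) l) (s1 (s0 (s1 l l) (s1 l l)) l)) l)))
    (Bx.mk 281475138912256 14745600 281475211001856 5832704 281474976710656 0 281474976710656 0) = true := by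
  decide +kernel

open Tr in
theorem tc140 : chk TKCP [] (s0 (s0 (s0 (s1 (s0 (s1 (s0 (s1 l l) (s1 l l)) l) (s1 (s0 (s1 l l) (s1 l l)) l)) l) (s1 (s0 (s1 (s0 (s1 l l) (s1 l l)) l) (s1 (s0 (s1 l l) (s1 l l)) l)) l)) (s0 (s1 (s0 (s1 (s0 l l) l) (s1 (s0 l l) l)) l) (s1 (s0 (s1 l l) (s1 l l)) l))) (s0 (s0 (s1 (s0 (s1 l l) (s1 l l)) l) (s1 (s0 (s1 l l) (s1 l l)) l)) (s0 (s1 (s0 (s1 l l) (s1 l l)) l) (s1 (s0 (s1 l l) (s1 l l)) l))))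
    (Bx.mk 281475183149056 29491200 281475211001856 5832704 281474976710656 0 281474976710656 0) = true := by
  decide +kernel

open Tr in
theorem tc141 : chk TKCP [] (s0 (s0 (s0 (s0 (s1 (s0 (s1 l l) (s1 l l)) l) (s1 (s0 (s1 l l) (s1 l l)) l)) (s0 (s1 (s0 (s1 l l) (s1 l l)) l) (s1 (s0 (s1 l l) (s1 l l)) l))) (s0 (s0 (s1 (s0 (s1 l l) (s1 l l)) l) (s1 (s0 (s1 l l) (s1 l l)) l)) (s0 (s1 (s0 (s1 l l) l) l) (s1 l l)))) (s0 (s0 (s0 (s1 l l) (s1 l l)) (s0 (s1 l l) (s1 l l))) (s0 (s0 (s1 l l) (s1 l l)) (s0 (s1 l l) (s1 l l)))))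
    (Bx.mk 281475271622656 58982400 281475211001856 5832704 281474976710656 0 281474976710656 0) = true := by
  decide +kernel

open Tr in
theorem tc142 : chk TKCP [] (s0 (s0 (s0 (s0 (s1 l l) (s1 l l)) (s0 (s1 l l) (s1 l l))) (s0 (s0 (s1 l l) (s1 l l)) (s0 (s1 l l) (s1 l l)))) (s0 (s0 (s0 (s1 l l) (s1 l l)) (s0 (s1 l l) (s1 l l))) (s0 (s0 (s1 l l) (s1 l l)) (s0 (s1 l l) l))))
    (Bx.mk 281475389587456 58982400 281475211001856 5832704 281474976710656 0 281474976710656 0) = true := by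
  decide +kernel

end SP

end Vale.Agent.Lib.P154
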