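import Vale.Agent.Lib.P154.SP.Prog

/-! Generated certificates. -/

namespace Vale.Agent.Lib.P154

namespace SP

open Tr in
theorem tc42 : chk TK6c [] (s1 (s0 (s0 (s0 (s1 l l) (s1 l l)) (s0 (s1 l l) (s1 l l))) (s0 (s0 (s2 l l) (s2 l l)) (s0 (s2 l l) l))) (s0 (s0 (s0 (s1 l l) (s1 l l)) (s0 (s1 l l) (s1 l l))) (s0 (s0 (s2 l l) (s2 l l)) (s0 (s2 l l) l))))
    (Bx.mk 281475001876480 8388608 281475450667008 12582912 281475061694464 6537216 281474976710656 0) = true := by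
  decide +kernel

open Tr in
theorem tc43 : chk TK6c [] (s0 (s0 (s0 (s2 l (s0 (s2 l (s2 l (s1 l l))) (s2 l (s2 l (s1 l l))))) (s2 l (s0 (s2 l (s2 l (s1 l l))) (s2 l (s2 l (s1 l l)))))) (s0 (s2 l (s0 (s2 l (s1 l l)) (s2 l (s1 l l)))) (s2 l (s0 (s2 l (s1 l l)) (s1 l l))))) (s0 (s0 (s2 l (s1 (s0 l l) (s0 l l))) (s2 l (s1 (s1 l l) (s1 l l)))) (s0 (s2 l (s2 l (s1 l l))) (s2 l (s1 l l)))))
    (Bx.mk 281474997682176 4194304 281475444375552 6291456 281475074768896 6537216 281474976710656 0) = true := by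
  decide +kernel

open Tr in
theorem tc44 : chk TK6c [] (s2 (s0 (s0 (s1 l l) (s1 l l)) (s0 (s1 l l) (s1 l l))) (s0 (s0 (s0 (s1 l l) (s1 l l)) (s0 (s1 l l) (s1 l l))) (s0 (s0 (s1 l l) l) (s0 l l))))
    (Bx.mk 281475006070784 4194304 281475444375552 6291456 281475074768896 6537216 281474976710656 0) = true := by
  decide +kernel

open Tr in
theorem tc45 : chk TK6c [] (s0 (s0 (s0 (s2 l (s0 (s2 l (s1 (s1 l l) (s1 l l))) (s2 l (s1 (s1 l l) (s1 l l))))) (s2 l (s0 (s2 l (s1 (s1 l l) (s1 l l))) (s2 l (s2 l (s1 l l)))))) (s0 (s2 l (s0 (s2 l (s1 l l)) (s2 l (s1 l l)))) (s2 l (s0 (s1 l l) (s1 l l))))) (s0 (s0 (s2 l (s0 (s1 l l) (s1 l l))) (s2 l (s0 (s1 l l) (s1 l l)))) (s0 (s2 l (s2 l (s1 l l))) (s2 l (s1 l l)))))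
    (Bx.mk 281474997682176 4194304 281475456958464 6291456 281475074768896 6537216 281474976710656 0) = true := by
  decide +kernel

open Tr in
theorem tc46 : chk TK6c [] (s2 (s0 (s0 (s1 l l) (s1 l l)) (s0 (s1 l l) (s1 l l))) (s1 (s0 (s0 (s0 l l) (s0 l l)) (s0 (s0 l l) (s1 l l))) (s0 (s0 (s0 l l) (s0 l l)) (s0 (s1 l l) (s1 l l)))))
    (Bx.mk 281475006070784 4194304 281475456958464 6291456 281475074768896 6537216 281474976710656 0) = true := by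
  decide +kernel

open Tr in
theorem tc47 : chk TK6c [] (s0 (s0 (s0 l (s0 l l)) (s0 (s0 (s2 l l) (s2 l l)) (s0 (s1 l l) (s0 l l)))) (s2 (s1 (s0 (s0 (s0 l l) (s0 l l)) (s0 (s0 l l) (s1 l l))) (s0 (s0 (s0 l l) (s0 l l)) (s0 (s0 l l) (s1 l l)))) (s1 (s0 (s0 (s0 l l) (s0 l l)) (s0 (s0 l l) (s0 l l))) (s0 (s0 (s0 l l) (s0 l l)) (s0 (s0 l l) (s0 l l))))))
    (Bx.mk 281474993487872 16777216 281475475832832 12582912 281475042082816 13074432 281474976710656 0) = true := by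
  decide +kernel

end SP

end Vale.Agent.Lib.P154
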